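import Vale.Agent.P233.AB.StmtAB
import Mathlib.Topology.MetricSpace.HausdorffDimension
import Mathlib.Analysis.SpecialFunctions.Trigonometric.Deriv
import Mathlib.Analysis.SpecialFunctions.Trigonometric.Inverse

/-! P233, RCDA, block G-pos (helper46): for `κ > 0` and local dimension `> 1` the diameter is at most
`π/√κ`, and antipodal points are unique. -/

set_option linter.all false

open Real Set Filter Topology
open scoped ENNReal NNReal

namespace Vale.Agent.P233.H46

variable {M : Type*} [MetricSpace M] {κ : ℝ}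

/-- scaled distance -/
noncomputable def K (κ : ℝ) (x y : M) : ℝ := √κ * dist x y

theorem K_comm (x y : M) : K κ x y = K κ y x := by rw [K, K, dist_comm]

theorem K_nonneg (x y : M) : 0 ≤ K κ x y := mul_nonneg (Real.sqrt_nonneg _) dist_nonneg

theorem K_self (x : M) : K κ x x = 0 := by rw [K, dist_self, mul_zero]

theorem K_tri (x y z : M) : K κ x z ≤ K κ x y + K κ y z := by
  rw [K, K, K, ← mul_add]
  exact mul_le_mul_of_nonneg_left (dist_triangle _ _ _) (Real.sqrt_nonneg _)

theorem K_pos (hk : 0 < κ) {x y : M} (h : x ≠ y) : 0 < K κ x y :=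
  mul_pos (Real.sqrt_pos.2 hk) (dist_pos.2 h)

theorem eq_of_K (hk : 0 < κ) {x y : M} (h : K κ x y ≤ 0) : x = y := by
  by_contra h1
  exact absurd (K_pos hk h1) (not_lt.2 h)

theorem K_geo (hA : T.IsAlexandrov M κ) (hk : 0 < κ) (x y : M) {s : ℝ} (h0 : 0 ≤ s)
    (h1 : s ≤ K κ x y) : ∃ w, K κ x w = s ∧ K κ w y = K κ x y - s := by
  have hs : 0 < √κ := Real.sqrt_pos.2 hk
  obtain ⟨w, h2, h3⟩ := hA.geodesic x y (s / √κ) (dist x y - s / √κ) (by positivity)
    (by
      have : s / √κ ≤ dist x y := by
        rw [div_le_iff₀ hs, mul_comm]; exact h1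
      linarith) (by ring)
  refine ⟨w, ?_, ?_⟩
  · rw [K, h2]; field_simp
  · rw [K, K, h3, mul_sub]
    congr 1
    field_simp

theorem K_cmp (hA : T.IsAlexandrov M κ) (hk : 0 < κ) {p x y w : M}
    (hw : K κ x w + K κ w y = K κ x y) (hp : K κ p x + K κ p y + K κ x y < 2 * π) :
    sin (K κ x y) * cos (K κ p w) ≤
      sin (K κ w y) * cos (K κ p x) + sin (K κ x w) * cos (K κ p y) := by
  have hs : 0 < √κ := Real.sqrt_pos.2 hk
  have h1 : dist x w + dist w y = dist x y := by
    have : √κ * (dist x w + dist w y) = √κ * dist x y := by rw [mul_add]; exact hw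
    exact mul_left_cancel₀ hs.ne' this
  have h2 := (hA.comparison p x y w h1 (by
    rw [mul_add, mul_add]; exact hp)).2.1 hk
  rw [h1] at h2
  exact h2

/-- comparison without the bound on the long side -/
theorem star (hA : T.IsAlexandrov M κ) (hk : 0 < κ) {a b m z : M}
    (hm : K κ a m + K κ m b = K κ a b) (ha0 : 0 < K κ a m) (ha1 : K κ a m < π)
    (hb0 : 0 < K κ m b) (hb1 : K κ m b < π)
    (hpa : K κ z a + K κ z m + K κ a m < 2 * π) (hpb : K κ z b + K κ z m + K κ m b < 2 * π) :
    sin (K κ a b) * cos (K κ z m) ≤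
      sin (K κ m b) * cos (K κ z a) + sin (K κ a m) * cos (K κ z b) := by
  have hzm : K κ z m < π := by
    have := K_tri (κ := κ) z a m
    linarith
  obtain ⟨δ, hδ0, hδa, hδb, hδ⟩ : ∃ δ : ℝ, 0 < δ ∧ δ ≤ K κ a m ∧ δ ≤ K κ m b ∧
      2 * K κ z m + 4 * δ < 2 * π := by
    refine ⟨min (min (K κ a m) (K κ m b)) ((π - K κ z m) / 4), ?_, ?_, ?_, ?_⟩
    · exact lt_min (lt_min ha0 hb0) (by linarith)
    · exact (min_le_left _ _).trans (min_le_left _ _)
    · exact (min_le_left _ _).trans (min_le_right _ _)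
    · have := min_le_right (min (K κ a m) (K κ m b)) ((π - K κ z m) / 4)
      linarith
  obtain ⟨a', h1, h2⟩ := K_geo hA hk m a hδ0.le (by rw [K_comm]; exact hδa)
  obtain ⟨b', h3, h4⟩ := K_geo hA hk m b hδ0.le hδb
  have h2' : K κ a' a = K κ a m - δ := by rw [h2, K_comm m a]
  have hab : K κ a' b' = 2 * δ := by
    refine le_antisymm ?_ ?_
    · have := K_tri (κ := κ) a' m b'
      rw [K_comm a' m, h1, h3] at this
      linarith
    · have e1 := K_tri (κ := κ) a a' b
      have e2 := K_tri (κ := κ) a' b' b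
      rw [K_comm a a', h2'] at e1
      rw [h4] at e2
      linarith
  have c1 := K_cmp hA hk (p := z) (x := m) (y := a) (w := a')
    (by rw [h1, h2]; ring)
    (by rw [K_comm m a]; linarith)
  have c2 := K_cmp hA hk (p := z) (x := m) (y := b) (w := b')
    (by rw [h3, h4]; ring)
    (by linarith)
  have c3 := K_cmp hA hk (p := z) (x := a') (y := b') (w := m)
    (by rw [K_comm a' m, h1, h3, hab]; ring)
    (by
      have e1 := K_tri (κ := κ) z m a'
      have e2 := K_tri (κ := κ) z m b'
      rw [h1] at e1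
      rw [h3] at e2
      rw [hab]
      linarith)
  rw [h1, h2', K_comm m a] at c1
  rw [h3, h4] at c2
  rw [hab, K_comm a' m, h1, h3] at c3
  have hδπ : δ < π := by linarith
  have sδ : 0 < sin δ := sin_pos_of_pos_of_lt_pi hδ0 hδπ
  have s1 : 0 < sin (K κ a m) := sin_pos_of_pos_of_lt_pi ha0 ha1
  have s2 : 0 < sin (K κ m b) := sin_pos_of_pos_of_lt_pi hb0 hb1
  rw [← hm, sin_add]
  rw [sin_sub] at c1 c2
  rw [sin_two_mul] at c3
  set L₁ := K κ a m
  set L₂ := K κ m b
  set r := K κ z m
  have c3' : 2 * cos δ * cos r ≤ cos (K κ z a') + cos (K κ z b') := by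
    have : sin δ * (2 * cos δ * cos r) ≤ sin δ * (cos (K κ z a') + cos (K κ z b')) := by
      linarith
    exact le_of_mul_le_mul_left this sδ
  have d3 : sin L₁ * sin L₂ * (2 * cos δ * cos r) ≤
      sin L₁ * sin L₂ * (cos (K κ z a') + cos (K κ z b')) :=
    mul_le_mul_of_nonneg_left c3' (mul_pos s1 s2).le
  have d1 := mul_le_mul_of_nonneg_left c1 s2.le
  have d2 := mul_le_mul_of_nonneg_left c2 s1.le
  have : sin δ * ((sin L₁ * cos L₂ + cos L₁ * sin L₂) * cos r) ≤
      sin δ * (sin L₂ * cos (K κ z a) + sin L₁ * cos (K κ z b)) := by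
    linarith
  exact le_of_mul_le_mul_left this sδ

theorem cos_add_cos' (A B : ℝ) : cos A + cos B = 2 * cos ((A + B) / 2) * cos ((A - B) / 2) := by
  rw [cos_add_cos]

/-- **diameter bound** -/
theorem diam_le (hA : T.IsAlexandrov M κ) (hk : 0 < κ)
    (hd : ∀ (p : M) (r : ℝ), 0 < r → 1 < dimH (Metric.ball p r)) (x y : M) : K κ x y ≤ π := by
  by_contra hlt
  push Not at hlt
  have hs : 0 < √κ := Real.sqrt_pos.2 hk
  have hπ := Real.pi_pos
  -- a geodesic of length `2 L` with `π < 2 L ≤ 3π/2`
  obtain ⟨L, hL0, hL1, hL2⟩ : ∃ L : ℝ, π < 2 * L ∧ 2 * L ≤ 3 * π / 2 ∧ 2 * L ≤ K κ x y := by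
    refine ⟨min (K κ x y) (3 * π / 2) / 2, ?_, ?_, ?_⟩
    · have : π < min (K κ x y) (3 * π / 2) := lt_min hlt (by linarith)
      linarith
    · have := min_le_right (K κ x y) (3 * π / 2)
      linarith
    · have := min_le_left (K κ x y) (3 * π / 2)
      linarith
  obtain ⟨b, hb, -⟩ := K_geo hA hk x y (s := 2 * L) (by linarith) hL2
  obtain ⟨m, hm1, hm2⟩ := K_geo hA hk x b (s := L) (by linarith) (by linarith)
  have hm2' : K κ m b = L := by rw [hm2, hb]; ring
  have hmid : K κ x m + K κ m b = K κ x b := by rw [hm1, hm2', hb]; ring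
  have hcL : cos L < 0 := cos_neg_of_pi_div_two_lt_of_lt (by linarith) (by linarith)
  have hsL : 0 < sin L := sin_pos_of_pos_of_lt_pi (by linarith) (by linarith)
  -- all points near `m` are between `x` and `b`
  have key : ∀ z : M, K κ z m < π - L → K κ z x + K κ z b = 2 * L := by
    intro z hz
    have r0 := K_nonneg (κ := κ) z m
    have A1 := K_tri (κ := κ) z m x
    have B1 := K_tri (κ := κ) z m b
    have A2 := K_tri (κ := κ) x z m
    have B2 := K_tri (κ := κ) m z b
    have AB := K_tri (κ := κ) x z b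
    rw [K_comm m x, hm1] at A1
    rw [hm2'] at B1
    rw [hm1, K_comm x z] at A2
    rw [hm2', K_comm m z] at B2
    rw [hb, K_comm x z] at AB
    have h1 := star hA hk (z := z) hmid (by rw [hm1]; linarith) (by rw [hm1]; linarith)
      (by rw [hm2']; linarith) (by rw [hm2']; linarith) (by rw [hm1]; linarith)
      (by rw [hm2']; linarith)
    rw [hb, hm1, hm2', sin_two_mul] at h1
    have h2 : 2 * (cos L * cos (K κ z m)) ≤ cos (K κ z x) + cos (K κ z b) := by
      have : sin L * (2 * (cos L * cos (K κ z m))) ≤ sin L * (cos (K κ z x) + cos (K κ z b)) := by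
        linarith
      exact le_of_mul_le_mul_left this hsL
    rw [cos_add_cos'] at h2
    by_contra hne
    have hu : L < (K κ z x + K κ z b) / 2 := by
      rcases lt_or_eq_of_le AB with h | h
      · linarith
      · exact absurd h.symm hne
    have hu2 : (K κ z x + K κ z b) / 2 ≤ π := by linarith
    have c1 : cos ((K κ z x + K κ z b) / 2) < cos L :=
      cos_lt_cos_of_nonneg_of_le_pi (by linarith) hu2 hu
    have hv : |(K κ z x - K κ z b) / 2| ≤ K κ z m := by
      rw [abs_le]; constructor <;> linarith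
    have c2 : cos (K κ z m) ≤ cos ((K κ z x - K κ z b) / 2) := by
      rw [← cos_abs ((K κ z x - K κ z b) / 2)]
      exact cos_le_cos_of_nonneg_of_le_pi (abs_nonneg _) (by linarith) hv
    have c3 : 0 < cos (K κ z m) := cos_pos_of_mem_Ioo ⟨by linarith, by linarith⟩
    have c4 : 0 < cos ((K κ z x - K κ z b) / 2) := c3.trans_le c2
    have c5 : cos ((K κ z x + K κ z b) / 2) * cos ((K κ z x - K κ z b) / 2) <
        cos L * cos ((K κ z x - K κ z b) / 2) := mul_lt_mul_of_pos_right c1 c4
    have c6 : cos L * cos ((K κ z x - K κ z b) / 2) ≤ cos L * cos (K κ z m) :=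
      mul_le_mul_of_nonpos_left c2 hcL.le
    linarith
  -- the ball of radius `(π - L)/2` is isometric to a subset of `ℝ`
  have iso : ∀ z₁ z₂ : M, K κ z₁ m < (π - L) / 2 → K κ z₂ m < (π - L) / 2 →
      K κ z₁ z₂ ≤ |K κ z₁ x - K κ z₂ x| := by
    intro z₁ z₂ h₁ h₂
    have k1 := key z₁ (by linarith)
    have k2 := key z₂ (by linarith)
    have r1 := K_nonneg (κ := κ) z₁ m
    have r2 := K_nonneg (κ := κ) z₂ m
    have A1 := K_tri (κ := κ) z₁ m x
    have B1 := K_tri (κ := κ) z₁ m b
    have A2 := K_tri (κ := κ) z₂ m x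
    have B2 := K_tri (κ := κ) z₂ m b
    have A3 := K_tri (κ := κ) x z₁ m
    have B3 := K_tri (κ := κ) m z₁ b
    have dd := K_tri (κ := κ) z₁ m z₂
    rw [K_comm m x, hm1] at A1 A2
    rw [hm2'] at B1 B2
    rw [hm1, K_comm x z₁] at A3
    rw [hm2', K_comm m z₁] at B3
    rw [K_comm m z₂] at dd
    have h1 := star hA hk (a := x) (b := b) (m := z₁) (z := z₂)
      (by rw [K_comm x z₁, hb]; exact k1) (by rw [K_comm]; linarith) (by rw [K_comm]; linarith)
      (by linarith) (by linarith) (by rw [K_comm z₂ z₁, K_comm x z₁]; linarith)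
      (by rw [K_comm z₂ z₁]; linarith)
    rw [hb, K_comm z₂ z₁, K_comm x z₁] at h1
    have e1 : K κ z₁ b = 2 * L - K κ z₁ x := by linarith
    have e2 : K κ z₂ b = 2 * L - K κ z₂ x := by linarith
    rw [e1, e2] at h1
    have e3 : sin (2 * L - K κ z₁ x) * cos (K κ z₂ x) + sin (K κ z₁ x) * cos (2 * L - K κ z₂ x)
        = sin (2 * L) * cos (K κ z₁ x - K κ z₂ x) := by
      rw [sin_sub, cos_sub, cos_sub]; ring
    rw [e3] at h1
    have hs2 : sin (2 * L) < 0 := by
      rw [sin_two_mul]
      have := mul_neg_of_pos_of_neg hsL hcL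
      linarith
    have h3 : cos (K κ z₁ x - K κ z₂ x) ≤ cos (K κ z₁ z₂) :=
      (mul_le_mul_left_of_neg hs2).1 h1
    by_contra hc
    push Not at hc
    have h4 : cos (K κ z₁ z₂) < cos |K κ z₁ x - K κ z₂ x| :=
      cos_lt_cos_of_nonneg_of_le_pi (abs_nonneg _) (by linarith) hc
    rw [cos_abs] at h4
    linarith
  -- hence dimension at most one
  have hρ : 0 < (π - L) / 2 / √κ := by
    have : 0 < (π - L) / 2 := by linarith
    positivity
  have hball : ∀ z ∈ Metric.ball m ((π - L) / 2 / √κ), K κ z m < (π - L) / 2 := by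
    intro z hz
    rw [Metric.mem_ball, lt_div_iff₀ hs] at hz
    rw [K, mul_comm]; exact hz
  have h1 := hd m _ hρ
  have h2 : dimH (Metric.ball m ((π - L) / 2 / √κ)) ≤ 1 := by
    set S := Metric.ball m ((π - L) / 2 / √κ) with hS
    have anti : AntilipschitzWith 1 (fun z : S => dist (z : M) x) := by
      refine AntilipschitzWith.of_le_mul_dist fun z₁ z₂ => ?_
      have h3 := iso z₁ z₂ (hball _ z₁.2) (hball _ z₂.2)
      rw [K, K, K, ← mul_sub, abs_mul, abs_of_pos hs] at h3
      have h4 := le_of_mul_le_mul_left h3 hs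
      rw [NNReal.coe_one, one_mul, Real.dist_eq]
      exact h4
    have h3 := anti.le_dimH_image (univ : Set S)
    have h4 : dimH (S : Set M) = dimH (univ : Set S) := by
      have := (isometry_subtype_coe (s := S)).dimH_image (univ : Set S)
      rw [image_univ, Subtype.range_coe] at this
      exact this
    rw [h4]
    exact h3.trans (by
      refine (dimH_mono (subset_univ _)).trans ?_
      rw [Real.dimH_univ])
  exact absurd h1 (not_lt.2 h2)

/-! ### antipodes -/

/-- near an interior point of a geodesic `[a,b]` with `|ab| = π/√κ` all points are between -/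
theorem near_anti (hA : T.IsAlexandrov M κ) (hk : 0 < κ) (hdiam : ∀ x y : M, K κ x y ≤ π)
    {a b m z : M} (hab : K κ a b = π) (hm : K κ a m + K κ m b = π) (h1 : K κ z m < K κ a m)
    (h2 : K κ z m < K κ m b) : K κ a z + K κ z b = π := by
  have r0 := K_nonneg (κ := κ) z m
  have A1 := K_tri (κ := κ) z m a
  have B1 := K_tri (κ := κ) z m b
  have AB := K_tri (κ := κ) a z b
  rw [K_comm m a] at A1
  rw [hab, K_comm a z] at AB
  have h3 := star hA hk (z := z) (hm.trans hab.symm) (by linarith) (by linarith) (by linarith)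
    (by linarith) (by linarith) (by linarith)
  have e1 : K κ m b = π - K κ a m := by linarith
  rw [hab, sin_pi, zero_mul, e1, sin_pi_sub, ← mul_add] at h3
  have hs : 0 < sin (K κ a m) := sin_pos_of_pos_of_lt_pi (by linarith) (by linarith)
  have h4 : 0 ≤ cos (K κ z a) + cos (K κ z b) := by
    by_contra hc
    push Not at hc
    exact absurd h3 (not_le.2 (mul_neg_of_pos_of_neg hs hc))
  rw [cos_add_cos'] at h4
  have hza := hdiam z a
  have hzb := hdiam z b
  have tri1 := K_tri (κ := κ) z b a
  have tri2 := K_tri (κ := κ) z a b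
  rw [K_comm b a, hab] at tri1
  rw [hab] at tri2
  rw [K_comm a z]
  by_contra hne
  have hu : π / 2 < (K κ z a + K κ z b) / 2 := by
    rcases lt_or_eq_of_le AB with h | h
    · linarith
    · exact absurd h.symm hne
  have c1 : cos ((K κ z a + K κ z b) / 2) < 0 :=
    cos_neg_of_pi_div_two_lt_of_lt hu (by linarith)
  have n1 := K_nonneg (κ := κ) z a
  have n2 := K_nonneg (κ := κ) z b
  have c2 : 0 < cos ((K κ z a - K κ z b) / 2) := by
    apply cos_pos_of_mem_Ioo
    constructor
    · by_contra hc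
      push Not at hc
      have : K κ z a ≤ 0 := by linarith
      have : K κ z b = π := by linarith
      apply hne; linarith
    · by_contra hc
      push Not at hc
      have : K κ z b ≤ 0 := by linarith
      have : K κ z a = π := by linarith
      apply hne; linarith
  have := mul_neg_of_neg_of_pos c1 c2
  linarith

/-- an interior point `m` of a geodesic `[a,b]` of length `π/√κ`: every `z` is between `a` and `b`,
or one of the endpoints is between `m` and `z` -/
theorem three_cases (hA : T.IsAlexandrov M κ) (hk : 0 < κ) (hdiam : ∀ x y : M, K κ x y ≤ π)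
    {a b m : M} (hab : K κ a b = π) (hm : K κ a m + K κ m b = π) (z : M) :
    K κ a z + K κ z b = π ∨ K κ m a + K κ a z = K κ m z ∨ K κ m b + K κ b z = K κ m z := by
  set S : Set ℝ := {t | t ≤ K κ m z ∧ ∃ w : M, K κ a w + K κ w b = π ∧ K κ m w = t ∧
    K κ w z = K κ m z - t} with hS
  have hne : (0 : ℝ) ∈ S := ⟨K_nonneg _ _, m, hm, K_self m, by ring⟩
  have hbdd : BddAbove S := ⟨K κ m z, fun t ht => ht.1⟩
  set T := sSup S with hT
  have hT0 : 0 ≤ T := le_csSup hbdd hne
  have hT1 : T ≤ K κ m z := csSup_le ⟨0, hne⟩ fun t ht => ht.1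
  by_contra hcon
  push Not at hcon
  obtain ⟨h1, h2, h3⟩ := hcon
  -- the defects
  have d1 : 0 < K κ a z + K κ z b - π := by
    have := K_tri (κ := κ) a z b
    rw [hab] at this
    rcases lt_or_eq_of_le this with h | h
    · linarith
    · exact absurd h.symm h1
  have d2 : 0 < K κ m a + K κ a z - K κ m z := by
    have := K_tri (κ := κ) m a z
    rcases lt_or_eq_of_le this with h | h
    · linarith
    · exact absurd h.symm h2
  have d3 : 0 < K κ m b + K κ b z - K κ m z := by
    have := K_tri (κ := κ) m b z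
    rcases lt_or_eq_of_le this with h | h
    · linarith
    · exact absurd h.symm h3
  obtain ⟨η, hη0, hη1, hη2, hη3⟩ : ∃ η : ℝ, 0 < η ∧ 4 * η < K κ a z + K κ z b - π ∧
      4 * η < K κ m a + K κ a z - K κ m z ∧ 4 * η < K κ m b + K κ b z - K κ m z := by
    refine ⟨min (K κ a z + K κ z b - π) (min (K κ m a + K κ a z - K κ m z)
      (K κ m b + K κ b z - K κ m z)) / 5, ?_, ?_, ?_, ?_⟩
    · have := lt_min d1 (lt_min d2 d3)
      linarith
    · have := min_le_left (K κ a z + K κ z b - π) (min (K κ m a + K κ a z - K κ m z)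
        (K κ m b + K κ b z - K κ m z))
      linarith
    · have e1 := min_le_right (K κ a z + K κ z b - π) (min (K κ m a + K κ a z - K κ m z)
        (K κ m b + K κ b z - K κ m z))
      have e2 := min_le_left (K κ m a + K κ a z - K κ m z) (K κ m b + K κ b z - K κ m z)
      linarith
    · have e1 := min_le_right (K κ a z + K κ z b - π) (min (K κ m a + K κ a z - K κ m z)
        (K κ m b + K κ b z - K κ m z))
      have e2 := min_le_right (K κ m a + K κ a z - K κ m z) (K κ m b + K κ b z - K κ m z)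
      linarith
  obtain ⟨t, ⟨ht1, w, hw1, hw2, hw3⟩, ht2⟩ := exists_lt_of_lt_csSup ⟨0, hne⟩
    (show T - η < sSup S by rw [← hT]; linarith)
  -- `w` is not near `a`, `b` or `z`
  have wa : 2 * η < K κ a w := by
    by_contra hc
    push Not at hc
    have e1 := K_tri (κ := κ) m w a
    have e2 := K_tri (κ := κ) a w z
    rw [K_comm w a] at e1
    linarith
  have wb : 2 * η < K κ w b := by
    by_contra hc
    push Not at hc
    have e1 := K_tri (κ := κ) m w b
    have e2 := K_tri (κ := κ) b w z
    rw [K_comm b w] at e2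
    linarith
  have wz : 2 * η < K κ w z := by
    by_contra hc
    push Not at hc
    have e1 := K_tri (κ := κ) a w z
    have e2 := K_tri (κ := κ) z w b
    rw [K_comm z w] at e2
    linarith
  obtain ⟨v, hv1, hv2⟩ := K_geo hA hk w z (s := 2 * η) (by linarith) wz.le
  have hv : K κ a v + K κ v b = π := near_anti hA hk hdiam (z := v) hab hw1
    (by rw [K_comm v w, hv1]; exact wa) (by rw [K_comm v w, hv1]; exact wb)
  have hmv : K κ m v = t + 2 * η := by
    refine le_antisymm ?_ ?_
    · have := K_tri (κ := κ) m w v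
      rw [hw2, hv1] at this
      exact this
    · have := K_tri (κ := κ) m v z
      rw [hv2, hw3] at this
      linarith
  have : t + 2 * η ∈ S := ⟨by rw [← hmv]; have := K_nonneg (κ := κ) v z; rw [hv2, hw3] at this; linarith,
    v, hv, hmv, by rw [hv2, hw3]; ring⟩
  have := le_csSup hbdd this
  linarith

/-- **all points are between two antipodal points** -/
theorem between_anti (hA : T.IsAlexandrov M κ) (hk : 0 < κ) (hdiam : ∀ x y : M, K κ x y ≤ π)
    {a b : M} (hab : K κ a b = π) (z : M) : K κ a z + K κ z b = π := by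
  by_contra hne
  have hπ := Real.pi_pos
  have d0 : 0 < K κ a z + K κ z b - π := by
    have := K_tri (κ := κ) a z b
    rw [hab] at this
    rcases lt_or_eq_of_le this with h | h
    · linarith
    · exact absurd h.symm hne
  have hza := hdiam a z
  have hzb := hdiam z b
  set δ := K κ a z + K κ z b - π with hδ
  set S : Set ℝ := {t | 0 ≤ t ∧ ∃ m : M, K κ a m = t ∧ K κ m b = π - t ∧
    K κ m a + K κ a z = K κ m z} with hS
  have h0 : (0 : ℝ) ∈ S := ⟨le_refl _, a, K_self a, by rw [hab]; ring, by rw [K_self]; ring⟩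
  have hbd : ∀ t ∈ S, t ≤ π - K κ a z := by
    rintro t ⟨-, m, h1, h2, h3⟩
    have := hdiam m z
    rw [K_comm m a, h1] at h3
    linarith
  have hbdd : BddAbove S := ⟨π - K κ a z, hbd⟩
  obtain ⟨t, ⟨ht0, m, h1, h2, h3⟩, ht⟩ := exists_lt_of_lt_csSup ⟨0, h0⟩
    (show sSup S - δ / 4 < sSup S by linarith)
  have ht1 := hbd t ⟨ht0, m, h1, h2, h3⟩
  -- move by `δ/2` towards `b`
  have haz : δ ≤ K κ a z := by linarith
  obtain ⟨v, hv1, hv2⟩ := K_geo hA hk m b (s := δ / 2) (by linarith) (by rw [h2]; linarith)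
  have hav : K κ a v = t + δ / 2 := by
    refine le_antisymm ?_ ?_
    · have := K_tri (κ := κ) a m v
      rw [h1, hv1] at this; exact this
    · have := K_tri (κ := κ) a v b
      rw [hab, hv2, h2] at this
      linarith
  have hvb : K κ v b = π - (t + δ / 2) := by rw [hv2, h2]; ring
  rcases three_cases hA hk hdiam hab (m := v) (by rw [hav, hvb]; ring) z with h | h | h
  · exact hne h
  · have : t + δ / 2 ∈ S := ⟨by linarith, v, hav, hvb, h⟩
    have := le_csSup hbdd this
    linarith
  · have e1 := hdiam v z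
    have e2 := hdiam m z
    have e3 := K_tri (κ := κ) m v z
    rw [K_comm m a, h1] at h3
    rw [hvb, K_comm b z] at h
    -- `|mz| = t + |az|`, `|vz| = π - t - δ/2 + |bz|`
    linarith

/-- **the antipode is unique** -/
theorem anti_unique (hA : T.IsAlexandrov M κ) (hk : 0 < κ) (hdiam : ∀ x y : M, K κ x y ≤ π)
    {p x y : M} (hx : K κ p x = π) (hy : K κ p y = π) : x = y := by
  have h1 := between_anti hA hk hdiam hx y
  rw [hy] at h1
  exact (eq_of_K hk (x := y) (y := x) (by linarith)).symm

/-- every perimeter is at most `2π/√κ` -/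
theorem perim_le (hA : T.IsAlexandrov M κ) (hk : 0 < κ) (hdiam : ∀ x y : M, K κ x y ≤ π)
    (x y z : M) (h : K κ x y = π) : K κ x y + K κ y z + K κ z x = 2 * π := by
  have := between_anti hA hk hdiam h z
  rw [K_comm y z, K_comm z x]
  linarith

end Vale.Agent.P233.H46
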