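import Vale.Agent.P233.RA.IfG
import Vale.Agent.P233.H46.GPos

/-! P233, RCDA, row RG-Myers (helper46). -/

universe u

open MeasureTheory

namespace Vale.Agent.P233.H46

theorem blk_Myers : RG.Blk_Myers.{u} := by
  intro M _ _ _ _ _ n κ hA hD hk x y
  have h1 : K κ x y ≤ Real.pi := diam_le hA.alex hk (fun p r hr => by
    rw [hD.dim p r hr]
    exact_mod_cast lt_of_lt_of_le one_lt_two hA.two_le) x y
  rw [K] at h1
  rw [le_div_iff₀ (Real.sqrt_pos.2 hk), mul_comm]
  exact h1

end Vale.Agent.P233.H46
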